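import Vale.Agent.P045.Combine

/-!
# P045: a general bound and Ryser's inequality for many classes of r-partite hypergraphs
-/

namespace Vale.Agent.Results.P045.Combined

open Vale.P045

/-- maximum degree at most `3` and `r ≥ 4`, or at most `4` and `r ≥ 6`, or at most `5` and
`r ≥ 13` -/
def SmallMaxDegree {V : Type*} (r : ℕ) (E : Finset (Finset V)) : Prop :=
  (4 ≤ r ∧ ∀ v, deg E v ≤ 3) ∨ (6 ≤ r ∧ ∀ v, deg E v ≤ 4) ∨ (13 ≤ r ∧ ∀ v, deg E v ≤ 5)

open Classical in
/-- every edge meets at most `2 r - 3` other edges -/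
def FewNeighbours {V : Type*} (r : ℕ) (E : Finset (Finset V)) : Prop :=
  ∀ e ∈ E, (E.filter fun f => f ≠ e ∧ ¬ Disjoint e f).card + 3 ≤ 2 * r

/-- for some `1 ≤ a ≤ r - 2` all non-isolated vertices have degree `a` or `a + 1` -/
def ConsecutiveDegrees {V : Type*} (r : ℕ) (E : Finset (Finset V)) : Prop :=
  ∃ a : ℕ, 1 ≤ a ∧ a + 2 ≤ r ∧ ∀ v, 1 ≤ deg E v → deg E v = a ∨ deg E v = a + 1

/-- all degrees of non-isolated vertices lie between `a` and `b`, where
`(r (a + b - 1) + 1)^2 ≤ 4 a b r (r - 1) + 1` -/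
def NearlyRegular {V : Type*} (r : ℕ) (E : Finset (Finset V)) : Prop :=
  ∃ a b : ℕ, 1 ≤ a ∧ (r * (a + b - 1) + 1) ^ 2 ≤ 4 * (a * b * (r * (r - 1))) + 1 ∧
    ∀ v, 1 ≤ deg E v → a ≤ deg E v ∧ deg E v ≤ b

/-- the non-isolated vertices of one part have degree at least `a`, all vertices of the other
parts have degree at most `b`, and `(r - 1) (b - 1) ≤ (r - 2) a` -/
def OneDensePart {V : Type*} {r : ℕ} (part : V → Fin r) (E : Finset (Finset V)) : Prop :=
  ∃ (j : Fin r) (a b : ℕ), 1 ≤ b ∧ (r - 1) * (b - 1) ≤ (r - 2) * a ∧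
    (∀ v, part v = j → 1 ≤ deg E v → a ≤ deg E v) ∧ (∀ v, part v ≠ j → deg E v ≤ b)

/-- some part, with `n` non-isolated vertices, satisfies
`n ∑ deg v ^ 2 ≤ (r - 1) |E| (|E| + n)` (the sum is over all vertices of `E`) -/
def GlobalCriterion {V : Type*} {r : ℕ} (part : V → Fin r) (E : Finset (Finset V)) : Prop :=
  ∃ j : Fin r, (partSet part E j).card * degSq E ≤
    (r - 1) * E.card * (E.card + (partSet part E j).card)

/-- there are weights `w` on the parts, of sum `1`, such that every edge, with degrees `x i` of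
its vertices, satisfies `(1 + ∑ (x i - 1)) ∑ w i / x i ≤ r - 1` -/
def EdgeCriterion {V : Type*} {r : ℕ} (part : V → Fin r) (E : Finset (Finset V)) : Prop :=
  ∃ w : Fin r → ℝ, (∀ i, 0 ≤ w i) ∧ ∑ i, w i = 1 ∧
    ∀ e ∈ E, ∀ x : Fin r → ℕ, (∀ i, ∃ v ∈ e, part v = i ∧ x i = deg E v) →
      (1 + ∑ i, ((x i : ℝ) - 1)) * ∑ i, w i / x i ≤ r - 1

/-- few edges: `3 |E| + 21 nu ≤ 8 r nu` -/
def FewEdges {V : Type*} (r : ℕ) (E : Finset (Finset V)) : Prop :=
  3 * E.card + 21 * nu E ≤ 8 * r * nu E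

/-- For every `r`-partite `r`-uniform hypergraph `12 tau ≤ 3 |E| + (4 r + 9) nu`, and Ryser's
inequality `tau ≤ (r-1) nu` holds in each of the eight classes above. -/
theorem result :
    ∀ (V : Type) (r : ℕ) (part : V → Fin r) (E : Finset (Finset V)), 2 ≤ r →
      IsPartite part E →
      12 * tau E ≤ 3 * E.card + (4 * r + 9) * nu E ∧
      (SmallMaxDegree r E ∨ FewNeighbours r E ∨ ConsecutiveDegrees r E ∨ NearlyRegular r E ∨
        OneDensePart part E ∨ GlobalCriterion part E ∨ EdgeCriterion part E ∨ FewEdges r E →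
        tau E ≤ (r - 1) * nu E) := by
  intro V r part E hr hE
  have hr1 : 1 ≤ r := by omega
  have h12 := sparse hr hE
  refine ⟨h12, ?_⟩
  rintro (h | h | ⟨a, ha, har, hd⟩ | ⟨a, b, ha, hab, hdeg⟩ | ⟨j, a, b, hb, hab, hj, hi⟩ |
    ⟨j, hj⟩ | ⟨w, hw0, hw1, hw⟩ | h)
  · exact max_degree hE h
  · exact few_neighbours hr hE h
  · exact consecutive hE a ha har hd
  · refine ryser_of_deg hr1 hE fun x hx => edge_range ha hr1 x (fun i => ?_) hab
    obtain ⟨v, hv, hxv⟩ := hx i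
    rw [hxv]
    exact hdeg v hv
  · exact ryser_one_part hr hE j hb hj hi hab
  · exact ryser_global hr1 hE j hj
  · exact ryser_weighted hr1 hE w hw0 hw1 hw
  · have hcast : ((r - 1 : ℕ) : ℤ) = (r : ℤ) - 1 := by
      rw [Nat.cast_sub (by omega)]
      norm_num
    unfold FewEdges at h
    zify at h h12 ⊢
    rw [hcast]
    nlinarith

end Vale.Agent.Results.P045.Combined
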