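import Vale.Agent.P045.Global

/-!
# P045: Ryser's inequality for r-partite hypergraphs with small or nearly equal degrees
-/

namespace Vale.Agent.Results.P045.NearRegular

open Vale.P045

/-- there are weights `w` on the parts, of sum `1`, such that every edge, with degrees `x i` of
its vertices, satisfies `(1 + ∑ (x i - 1)) ∑ w i / x i ≤ r - 1` -/
def EdgeCriterion {V : Type*} {r : ℕ} (part : V → Fin r) (E : Finset (Finset V)) : Prop :=
  ∃ w : Fin r → ℝ, (∀ i, 0 ≤ w i) ∧ ∑ i, w i = 1 ∧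
    ∀ e ∈ E, ∀ x : Fin r → ℕ, (∀ i, ∃ v ∈ e, part v = i ∧ x i = deg E v) →
      (1 + ∑ i, ((x i : ℝ) - 1)) * ∑ i, w i / x i ≤ r - 1

/-- some part, with `n` non-isolated vertices, satisfies
`n ∑ deg v ^ 2 ≤ (r - 1) |E| (|E| + n)` (the sum is over all vertices of `E`) -/
def GlobalCriterion {V : Type*} {r : ℕ} (part : V → Fin r) (E : Finset (Finset V)) : Prop :=
  ∃ j : Fin r, (partSet part E j).card * degSq E ≤
    (r - 1) * E.card * (E.card + (partSet part E j).card)

/-- all degrees of non-isolated vertices lie between `a` and `b`, where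
`(r (a + b - 1) + 1)^2 ≤ 4 a b r (r - 1) + 1` -/
def NearlyRegular {V : Type*} (r : ℕ) (E : Finset (Finset V)) : Prop :=
  ∃ a b : ℕ, 1 ≤ a ∧ (r * (a + b - 1) + 1) ^ 2 ≤ 4 * (a * b * (r * (r - 1))) + 1 ∧
    ∀ v, 1 ≤ deg E v → a ≤ deg E v ∧ deg E v ≤ b

/-- the non-isolated vertices of one part have degree at least `a`, all vertices of the other
parts have degree at most `b`, and `(r - 1) (b - 1) ≤ (r - 2) a` -/
def OneDensePart {V : Type*} {r : ℕ} (part : V → Fin r) (E : Finset (Finset V)) : Prop :=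
  ∃ (j : Fin r) (a b : ℕ), 1 ≤ b ∧ (r - 1) * (b - 1) ≤ (r - 2) * a ∧
    (∀ v, part v = j → 1 ≤ deg E v → a ≤ deg E v) ∧ (∀ v, part v ≠ j → deg E v ≤ b)

/-- Ryser's inequality `tau ≤ (r-1) nu` for all `r`-partite `r`-uniform hypergraphs which satisfy
one of: the edge criterion; the global criterion; nearly equal degrees; one dense part; maximum degree at most `2` and
`r ≥ 3`; maximum degree at most `3` and `r ≥ 6`; all degrees equal to some `d ≤ r - 1`. -/
theorem result.{u} :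
    ∀ (V : Type u) (r : ℕ) (part : V → Fin r) (E : Finset (Finset V)), 2 ≤ r →
      IsPartite part E →
      (EdgeCriterion part E ∨ GlobalCriterion part E ∨ NearlyRegular r E ∨
        OneDensePart part E ∨
        (3 ≤ r ∧ ∀ v, deg E v ≤ 2) ∨ (6 ≤ r ∧ ∀ v, deg E v ≤ 3) ∨
        (∃ d : ℕ, d ≤ r - 1 ∧ ∀ v, 1 ≤ deg E v → deg E v = d)) →
      tau E ≤ (r - 1) * nu E := by
  intro V r part E hr hE h
  have hr1 : 1 ≤ r := by omega
  rcases h with ⟨w, hw0, hw1, hw⟩ | ⟨j, hj⟩ | ⟨a, b, ha, hab, hdeg⟩ |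
    ⟨j, a, b, hb, hab, hj, hi⟩ |
    ⟨hr3, hdeg⟩ | ⟨hr6, hdeg⟩ | ⟨d, hd, hdeg⟩
  · exact ryser_weighted hr1 hE w hw0 hw1 hw
  · exact ryser_global hr1 hE j hj
  · refine ryser_of_deg hr1 hE fun x hx => edge_range ha hr1 x (fun i => ?_) hab
    obtain ⟨v, hv, hxv⟩ := hx i
    rw [hxv]
    exact hdeg v hv
  · exact ryser_one_part hr hE j hb hj hi hab
  · refine ryser_of_deg hr1 hE fun x hx => edge_range (a := 1) (b := 2) le_rfl hr1 x
      (fun i => ?_) ?_
    · obtain ⟨v, hv, hxv⟩ := hx i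
      rw [hxv]
      exact ⟨hv, hdeg v⟩
    · obtain ⟨m, rfl⟩ : ∃ m, r = m + 3 := ⟨r - 3, by omega⟩
      have h1 : m + 3 - 1 = m + 2 := by omega
      rw [h1]
      norm_num
      nlinarith
  · refine ryser_of_deg hr1 hE fun x hx => edge_range (a := 1) (b := 3) le_rfl hr1 x
      (fun i => ?_) ?_
    · obtain ⟨v, hv, hxv⟩ := hx i
      rw [hxv]
      exact ⟨hv, hdeg v⟩
    · obtain ⟨m, rfl⟩ : ∃ m, r = m + 6 := ⟨r - 6, by omega⟩
      have h1 : m + 6 - 1 = m + 5 := by omega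
      rw [h1]
      norm_num
      nlinarith
  · by_cases hd1 : 1 ≤ d
    · refine ryser_of_deg hr1 hE fun x hx => edge_regular hd1 hd hr1 x (fun i => ?_)
      obtain ⟨v, hv, hxv⟩ := hx i
      rw [hxv]
      exact hdeg v hv
    · refine ryser_of_deg hr1 hE fun x hx => ?_
      exfalso
      obtain ⟨v, hv, hxv⟩ := hx ⟨0, hr1⟩
      have := hdeg v hv
      omega

end Vale.Agent.Results.P045.NearRegular
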