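import Vale.Agent.P045.SD.Defs
import Vale.Agent.P045.SD.Main

/-! P045: Ryser's conjecture for hypergraphs of small maximum degree, of small line degree, and
with nearly equal degrees. -/

namespace Vale.Agent.Results.P045.SmallDegree

open Vale.Agent.P045

/-- Ryser's inequality `τ ≤ (r - 1) ν` for five classes of `r`-partite `r`-uniform hypergraphs. -/
theorem result {V : Type*} [DecidableEq V] (r : ℕ) (part : V → Fin r) (H : Finset (Finset V))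
    (hP : IsPartite r part H) :
    (4 ≤ r → (∀ v, deg H v ≤ 3) → tau H ≤ (r - 1) * nu H) ∧
    (6 ≤ r → (∀ v, deg H v ≤ 4) → tau H ≤ (r - 1) * nu H) ∧
    (13 ≤ r → (∀ v, deg H v ≤ 5) → tau H ≤ (r - 1) * nu H) ∧
    (2 ≤ r → (∀ e ∈ H, (H.filter fun f => f ≠ e ∧ ¬ Disjoint e f).card ≤ 2 * r - 3) →
      tau H ≤ (r - 1) * nu H) ∧
    (∀ a : ℕ, 1 ≤ a → a + 2 ≤ r → (∀ e ∈ H, ∀ v ∈ e, deg H v = a ∨ deg H v = a + 1) →
      tau H ≤ (r - 1) * nu H) ∧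
    (2 ≤ r → ∀ a D : ℕ, 1 ≤ a → 1 ≤ D →
      ((r : ℤ) * (D + a - 1) + 1) ^ 2 ≤ 4 * a * D * r * (r - 1) →
      (∀ e ∈ H, ∀ v ∈ e, a ≤ deg H v ∧ deg H v ≤ D) → tau H ≤ (r - 1) * nu H) := by
  refine ⟨fun h1 h2 => ryser_all part H hP (Or.inl ⟨h1, h2⟩),
    fun h1 h2 => ryser_all part H hP (Or.inr (Or.inl ⟨h1, h2⟩)),
    fun h1 h2 => ryser_all part H hP (Or.inr (Or.inr (Or.inl ⟨h1, h2⟩))),
    fun h1 h2 => ryser_all part H hP (Or.inr (Or.inr (Or.inr (Or.inl ⟨h1, fun e he => ?_⟩)))),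
    fun a ha har hd => ryser_all part H hP
      (Or.inr (Or.inr (Or.inr (Or.inr (Or.inl ⟨a, ha, har, hd⟩))))),
    fun hr a D ha hD hq hd => ryser_all part H hP
      (Or.inr (Or.inr (Or.inr (Or.inr (Or.inr ⟨hr, a, D, ha, hD, hq, hd⟩)))))⟩
  have := h2 e he
  omega

end Vale.Agent.Results.P045.SmallDegree
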