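import Mathlib
import Vale.Agent.P045.Sparse13

namespace Vale.Agent.Results.P045.SparseRyser

variable {V : Type} [DecidableEq V]

/-- `H` is `r`-partite and `r`-uniform with parts `p⁻¹(i)`: every edge contains exactly one vertex
of each part. -/
def IsPartite (r : ℕ) (p : V → Fin r) (H : Finset (Finset V)) : Prop :=
  ∀ e ∈ H, ∀ i : Fin r, ∃! v, v ∈ e ∧ p v = i

/-- The matching number: the largest number of pairwise disjoint edges. -/
noncomputable def nu (H : Finset (Finset V)) : ℕ :=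
  sSup {n | ∃ M : Finset (Finset V), M ⊆ H ∧
    (∀ e ∈ M, ∀ f ∈ M, e ≠ f → Disjoint e f) ∧ M.card = n}

/-- The covering number: the least size of a set of vertices meeting every edge. -/
noncomputable def tau (H : Finset (Finset V)) : ℕ :=
  sInf {n | ∃ T : Finset V, (∀ e ∈ H, ∃ v ∈ e, v ∈ T) ∧ T.card = n}

/-- Ryser's bound for sparse hypergraphs and for hypergraphs of small maximum degree. -/
theorem result (r : ℕ) (hr : 2 ≤ r) (p : V → Fin r) (H : Finset (Finset V))
    (hH : IsPartite r p H) :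
    12 * tau H ≤ 3 * H.card + (4 * r + 9) * nu H ∧
    (3 * H.card + 21 * nu H ≤ 8 * r * nu H → tau H ≤ (r - 1) * nu H) ∧
    (12 ≤ r → (∀ v, (H.filter (fun e => v ∈ e)).card ≤ 3) → tau H ≤ (r - 1) * nu H) ∧
    (4 ≤ r → (∀ v, (H.filter (fun e => v ∈ e)).card ≤ 2) → tau H ≤ (r - 1) * nu H) := by
  classical
  have hgood : Vale.P045S.Good r (nu H) H := by
    refine ⟨?_, ?_, ?_⟩
    · intro e he
      have h1 : Set.InjOn p (e : Set V) := by
        intro v hv w hw hvw
        exact (hH e he (p v)).unique ⟨hv, rfl⟩ ⟨hw, hvw.symm⟩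
      have h2 := Finset.card_le_card_of_injOn p (t := (Finset.univ : Finset (Fin r)))
        (fun v _ => Finset.mem_coe.2 (Finset.mem_univ (p v))) h1
      rwa [Finset.card_univ, Fintype.card_fin] at h2
    · intro e he
      obtain ⟨v, hv, _⟩ := hH e he ⟨0, by omega⟩
      exact ⟨v, hv.1⟩
    · intro M hM hm
      refine le_csSup ⟨H.card, ?_⟩ ⟨M, hM, hm, rfl⟩
      rintro n ⟨M', hM', _, rfl⟩
      exact Finset.card_le_card hM'
  have htau : ∀ T : Finset V, Vale.P045S.IsCover H T → tau H ≤ T.card := fun T hT =>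
    Nat.sInf_le ⟨T, hT, rfl⟩
  set N := nu H with hN
  have h12 : 12 * tau H ≤ 3 * H.card + (4 * r + 9) * N := by
    obtain ⟨T, hT, hc⟩ := Vale.P045S.general r N H hgood
    have := htau T hT
    omega
  have hcast : ((r - 1 : ℕ) : ℤ) = (r : ℤ) - 1 := by
    rw [Nat.cast_sub (by omega)]; norm_num
  refine ⟨h12, ?_, ?_, ?_⟩
  · intro h
    zify at h h12 ⊢
    rw [hcast]
    nlinarith
  · intro h4 hd
    obtain ⟨T, hT, hc⟩ := Vale.P045S.deg_three r N H ⟨hgood, fun v => Nat.lt_succ_of_le (hd v)⟩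
    have h1 := htau T hT
    have h2 : H.card ≤ (r * 2 + 1) * N :=
      Vale.P045S.card_le r 2 N H hgood.1 hgood.2.1 (fun v => hd v) hgood.2.2
    have h3 : 12 * N ≤ r * N := Nat.mul_le_mul_right _ h4
    zify at h1 h2 h3 hc ⊢
    rw [hcast]
    nlinarith
  · intro h4 hd
    obtain ⟨T, hT, hc⟩ := Vale.P045S.deg_two r N H ⟨hgood, fun v => Nat.lt_succ_of_le (hd v)⟩
    have h1 := htau T hT
    have h2 : H.card ≤ (r * 1 + 1) * N :=
      Vale.P045S.card_le r 1 N H hgood.1 hgood.2.1 (fun v => hd v) hgood.2.2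
    have h3 : 4 * N ≤ r * N := Nat.mul_le_mul_right _ h4
    zify at h1 h2 h3 hc ⊢
    rw [hcast]
    nlinarith

end Vale.Agent.Results.P045.SparseRyser
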